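import Vale.Agent.Lib.P154Anti.Cert.D10F.Table0
import Vale.Agent.Lib.P154Anti.Cert.D10F.Masses

namespace Vale.Agent.Lib.P154Anti.Cert.D10F

open Vale.Agent.Lib.P154Anti

theorem L30 : lvlOK3 cfg par tblI0 tblE0 vE vc Q30 17589006388729 Q31 = true := by decide +kernel

theorem L31 : lvlOK3 cfg par tblI0 tblE0 vE vc Q31 17588722844249 Q32 = true := by decide +kernel

theorem L32 : lvlOK3 cfg par tblI0 tblE0 vE vc Q32 17589057132011 Q33 = true := by decide +kernel

theorem L33 : lvlOK3 cfg par tblI0 tblE0 vE vc Q33 17589283406515 Q34 = true := by decide +kernel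

theorem L34 : lvlOK3 cfg par tblI0 tblE0 vE vc Q34 17588764332955 Q35 = true := by decide +kernel

theorem L35 : lvlOK3 cfg par tblI0 tblE0 vE vc Q35 17588482092247 Q36 = true := by decide +kernel

theorem L36 : lvlOK3 cfg par tblI0 tblE0 vE vc Q36 17589200185810 Q37 = true := by decide +kernel

theorem L37 : lvlOK3 cfg par tblI0 tblE0 vE vc Q37 17589134910196 Q38 = true := by decide +kernel

theorem L38 : lvlOK3 cfg par tblI0 tblE0 vE vc Q38 17589000174786 Q39 = true := by decide +kernel

theorem L39 : lvlOK3 cfg par tblI0 tblE0 vE vc Q39 17589144100876 Q40 = true := by decide +kernel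

end Vale.Agent.Lib.P154Anti.Cert.D10F
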