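import Vale.Agent.Lib.P154Anti.Cert.D10F.Table0
import Vale.Agent.Lib.P154Anti.Cert.D10F.Masses

namespace Vale.Agent.Lib.P154Anti.Cert.D10F

open Vale.Agent.Lib.P154Anti

theorem L40 : lvlOK3 cfg par tblI0 tblE0 vE vc Q40 17589191531762 Q41 = true := by decide +kernel

theorem L41 : lvlOK3 cfg par tblI0 tblE0 vE vc Q41 17588788532122 Q42 = true := by decide +kernel

theorem L42 : lvlOK3 cfg par tblI0 tblE0 vE vc Q42 17589229482510 Q43 = true := by decide +kernel

theorem L43 : lvlOK3 cfg par tblI0 tblE0 vE vc Q43 17588821395534 Q44 = true := by decide +kernel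

theorem L44 : lvlOK3 cfg par tblI0 tblE0 vE vc Q44 17589211157162 Q45 = true := by decide +kernel

theorem L45 : lvlOK3 cfg par tblI0 tblE0 vE vc Q45 17588954062552 Q46 = true := by decide +kernel

theorem L46 : lvlOK3 cfg par tblI0 tblE0 vE vc Q46 17589243904533 Q47 = true := by decide +kernel

theorem L47 : lvlOK3 cfg par tblI0 tblE0 vE vc Q47 17588975842051 Q48 = true := by decide +kernel

theorem L48 : lvlOK3 cfg par tblI0 tblE0 vE vc Q48 17589024443643 Q49 = true := by decide +kernel

theorem L49 : lvlOK3 cfg par tblI0 tblE0 vE vc Q49 17588920047271 Q50 = true := by decide +kernel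

end Vale.Agent.Lib.P154Anti.Cert.D10F
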