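import Vale.Agent.Lib.P154Anti.Cert.D10F.Table0
import Vale.Agent.Lib.P154Anti.Cert.D10F.Masses

namespace Vale.Agent.Lib.P154Anti.Cert.D10F

open Vale.Agent.Lib.P154Anti

theorem L50 : lvlOK3 cfg par tblI0 tblE0 vE vc Q50 17588879365035 Q51 = true := by decide +kernel

theorem L51 : lvlOK3 cfg par tblI0 tblE0 vE vc Q51 17589088716831 Q52 = true := by decide +kernel

theorem L52 : lvlOK3 cfg par tblI0 tblE0 vE vc Q52 17589293160756 Q53 = true := by decide +kernel

theorem L53 : lvlOK3 cfg par tblI0 tblE0 vE vc Q53 17589063138867 Q54 = true := by decide +kernel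

end Vale.Agent.Lib.P154Anti.Cert.D10F
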